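import Vale.Agent.P224.R2.H135.ChkP
import Vale.Agent.P224.R2.H162.P1b.Rows
import Vale.Agent.P224.R2.H162.P1b.DA0
import Vale.Agent.P224.R2.H162.P1b.DA1
import Vale.Agent.P224.R2.H162.P1b.DA2
import Vale.Agent.P224.R2.H162.P1b.DA3
import Vale.Agent.P224.R2.H162.P1b.DA4
import Vale.Agent.P224.R2.H162.P1b.DA5
import Vale.Agent.P224.R2.H162.P1b.DA6
import Vale.Agent.P224.R2.H162.P1b.DA7
import Vale.Agent.P224.R2.H162.P1b.DB0
import Vale.Agent.P224.R2.H162.P1b.DB1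
import Vale.Agent.P224.R2.H162.P1b.DB2
import Vale.Agent.P224.R2.H162.P1b.DB3
import Vale.Agent.P224.R2.H162.P1b.DB4
import Vale.Agent.P224.R2.H162.P1b.DB5
import Vale.Agent.P224.R2.H162.P1b.DB6
import Vale.Agent.P224.R2.H162.P1b.DB7
import Vale.Agent.P224.R2.H162.P1b.DX0
import Vale.Agent.P224.R2.H162.P1b.DX1
import Vale.Agent.P224.R2.H162.P1b.DX2
import Vale.Agent.P224.R2.H162.P1b.DX3

/-!
The identities of the two certificates (dimensions from 36 on, 61/2500 to 3/100).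
-/

namespace Vale.Agent.P224.R2.H162.P1b

open Vale.Agent.P224.UE Vale.Agent.P224.POS Vale.Agent.P224.UG Vale.Agent.P224.PU Vale.Agent.P224.R2.H389 Vale.Agent.P224.R2.H135
open scoped RealInnerProductSpace

noncomputable section

/-- the blocks at the end `0` -/
def BK0 : List BS := [
  (0, ⟨elsA0, GA0⟩, SA0),
  (0, ⟨elsA1, GA1⟩, SA1),
  (0, ⟨elsA2, GA2⟩, SA2),
  (0, ⟨elsA3, GA3⟩, SA3),
  (3, ⟨elsA4, GA4⟩, SA4),
  (3, ⟨elsA5, GA5⟩, SA5),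
  (3, ⟨elsA6, GA6⟩, SA6),
  (3, ⟨elsA7, GA7⟩, SA7)]

lemma hBK0 : ∀ b ∈ BK0, okB b := by
  intro b hb
  unfold BK0 at hb
  rcases List.mem_cons.1 hb with rfl | hb
  · exact okA0
  rcases List.mem_cons.1 hb with rfl | hb
  · exact okA1
  rcases List.mem_cons.1 hb with rfl | hb
  · exact okA2
  rcases List.mem_cons.1 hb with rfl | hb
  · exact okA3
  rcases List.mem_cons.1 hb with rfl | hb
  · exact okA4
  rcases List.mem_cons.1 hb with rfl | hb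
  · exact okA5
  rcases List.mem_cons.1 hb with rfl | hb
  · exact okA6
  rcases List.mem_cons.1 hb with rfl | hb
  · exact okA7
  · exact absurd hb List.not_mem_nil

/-- the extra blocks -/
def XE0 : List BS := [
  (0, ⟨elsX0, GX0⟩, SX0_0),
  (3, ⟨elsX1, GX1⟩, SX1_0)]

lemma hXE0 : ∀ b ∈ XE0, okX (tE 1 0 0 37) b := by
  intro b hb
  unfold XE0 at hb
  rcases List.mem_cons.1 hb with rfl | hb
  · exact okX0_0
  rcases List.mem_cons.1 hb with rfl | hb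
  · exact okX1_0
  · exact absurd hb List.not_mem_nil

/-- the extra blocks -/
def XO0 : List BS := [
  (0, ⟨elsX2, GX2⟩, SX2_0),
  (3, ⟨elsX3, GX3⟩, SX3_0)]

lemma hXO0 : ∀ b ∈ XO0, okX (tO 1 0 0 37) b := by
  intro b hb
  unfold XO0 at hb
  rcases List.mem_cons.1 hb with rfl | hb
  · exact okX2_0
  rcases List.mem_cons.1 hb with rfl | hb
  · exact okX3_0
  · exact absurd hb List.not_mem_nil

/-- the blocks at the end `1` -/
def BK1 : List BS := [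
  (0, ⟨elsB0, GB0⟩, SB0),
  (0, ⟨elsB1, GB1⟩, SB1),
  (0, ⟨elsB2, GB2⟩, SB2),
  (0, ⟨elsB3, GB3⟩, SB3),
  (3, ⟨elsB4, GB4⟩, SB4),
  (3, ⟨elsB5, GB5⟩, SB5),
  (3, ⟨elsB6, GB6⟩, SB6),
  (3, ⟨elsB7, GB7⟩, SB7)]

lemma hBK1 : ∀ b ∈ BK1, okB b := by
  intro b hb
  unfold BK1 at hb
  rcases List.mem_cons.1 hb with rfl | hb
  · exact okB0
  rcases List.mem_cons.1 hb with rfl | hb
  · exact okB1
  rcases List.mem_cons.1 hb with rfl | hb
  · exact okB2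
  rcases List.mem_cons.1 hb with rfl | hb
  · exact okB3
  rcases List.mem_cons.1 hb with rfl | hb
  · exact okB4
  rcases List.mem_cons.1 hb with rfl | hb
  · exact okB5
  rcases List.mem_cons.1 hb with rfl | hb
  · exact okB6
  rcases List.mem_cons.1 hb with rfl | hb
  · exact okB7
  · exact absurd hb List.not_mem_nil

/-- the extra blocks -/
def XE1 : List BS := [
  (0, ⟨elsX0, GX0⟩, SX0_1),
  (3, ⟨elsX1, GX1⟩, SX1_1)]

lemma hXE1 : ∀ b ∈ XE1, okX (tE 1 1 1 37) b := by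
  intro b hb
  unfold XE1 at hb
  rcases List.mem_cons.1 hb with rfl | hb
  · exact okX0_1
  rcases List.mem_cons.1 hb with rfl | hb
  · exact okX1_1
  · exact absurd hb List.not_mem_nil

/-- the extra blocks -/
def XO1 : List BS := [
  (0, ⟨elsX2, GX2⟩, SX2_1),
  (3, ⟨elsX3, GX3⟩, SX3_1)]

lemma hXO1 : ∀ b ∈ XO1, okX (tO 1 1 1 37) b := by
  intro b hb
  unfold XO1 at hb
  rcases List.mem_cons.1 hb with rfl | hb
  · exact okX2_1
  rcases List.mem_cons.1 hb with rfl | hb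
  · exact okX3_1
  · exact absurd hb List.not_mem_nil

/-- the integers replacing `k, P₊, P₋, g` -/
def Ms0 : List Nat := [
  Nat.add (Nat.pow 2 60) 1024421277861575701,
  Nat.add (Nat.pow 2 654) 14029467366897019727,
  Nat.add (Nat.pow 2 4456) 1609587929392839161,
  Nat.add (Nat.pow 2 27269) 15485907386658061715]

set_option maxRecDepth 100000 in
/-- **The identity at the end `0`**, checked by the kernel. -/
theorem id0 : chk Ms0 (PE.sub (lhsF rows0) (PE.add (rhsS BK0) (PE.add (rhsS XE0) (rhsS XO0)))) = true := by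
  decide +kernel

/-- the integers replacing `k, P₊, P₋, g` -/
def Ms1 : List Nat := [
  Nat.add (Nat.pow 2 61) 2177342782468422677,
  Nat.add (Nat.pow 2 611) 14029467366897019727,
  Nat.add (Nat.pow 2 5425) 1609587929392839161,
  Nat.add (Nat.pow 2 43938) 15485907386658061715]

set_option maxRecDepth 100000 in
/-- **The identity at the end `1`**, checked by the kernel. -/
theorem id1 : chk Ms1 (PE.sub (lhsF rows1) (PE.add (rhsS BK1) (PE.add (rhsS XE1) (rhsS XO1)))) = true := by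
  decide +kernel

open Set in
/-- the pointwise inequality of the pair -/
theorem hpt {E : Type*} [NormedAddCommGroup E] [InnerProductSpace ℝ E] :
    ∀ T ∈ Ioo (0 : ℝ) 1, ∃ ZE ZO : ℕ → ℕ → ℝ, Psd ZE ∧ Psd ZO ∧
      ∀ u w e : E, ‖u‖ = 1 → ‖w‖ = 1 → ‖e‖ = 1 → ∀ P Q Z Ξ : ℝ,
      (Dsum (certK D rows0) T ![P, Q, ⟪u, w⟫, ⟪u, e⟫, ⟪w, e⟫, Z, Ξ, ⟪e, e⟫]
        + Dsum (certK D rows0) T (sw8 T ![P, Q, ⟪u, w⟫, ⟪u, e⟫, ⟪w, e⟫, Z, Ξ, ⟪e, e⟫])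
        + (H135.XE 0 37 ZE (vK (kf T) ![P, Q, ⟪u, w⟫, ⟪u, e⟫, ⟪w, e⟫, Z, Ξ, ⟪e, e⟫])
          + H135.XO 0 37 ZO (vK (kf T) ![P, Q, ⟪u, w⟫, ⟪u, e⟫, ⟪w, e⟫, Z, Ξ, ⟪e, e⟫])) ≤ 0) ∧
      (Dsum (certK D rows1) T ![P, Q, ⟪u, w⟫, ⟪u, e⟫, ⟪w, e⟫, Z, Ξ, ⟪e, e⟫]
        + Dsum (certK D rows1) T (sw8 T ![P, Q, ⟪u, w⟫, ⟪u, e⟫, ⟪w, e⟫, Z, Ξ, ⟪e, e⟫])
        + (H135.XE 1 37 ZE (vK (kf T) ![P, Q, ⟪u, w⟫, ⟪u, e⟫, ⟪w, e⟫, Z, Ξ, ⟪e, e⟫])
          + H135.XO 1 37 ZO (vK (kf T) ![P, Q, ⟪u, w⟫, ⟪u, e⟫, ⟪w, e⟫, Z, Ξ, ⟪e, e⟫])) ≤ 0) := by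
  refine hpt_pair (N := 37) (ρ := 1) (s := 1) (ρ' := 1) (s' := 1) D_pos rfl rfl id0 id1 hBK0 hXE0 hXO0
    hBK1 hXE1 hXO1 rfl rfl zero_le_one zero_le_one ?_ ?_ ?_ ?_ ?_ ?_ ?_ ?_ ?_ ?_ <;> norm_num


end

end Vale.Agent.P224.R2.H162.P1b
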