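import Vale.Agent.P224.R2.H389.NumP
import Vale.Agent.P224.R2.H162.P1b.Rows

/-!
The numeric law of the pair of certificates `P1b`.
-/

namespace Vale.Agent.P224.R2.H162.P1b

open Vale.Agent.P224.UE Vale.Agent.P224.POS Vale.Agent.P224.UG Vale.Agent.P224.PU
open Vale.Agent.P224.R2.H389

noncomputable section

theorem H0_0 (ν q : ℝ) : H0 D rows0 ν q
    = (1079472179 / 1073741824) + (-84929483 / 268435456) * ν + (6235877 / 268435456) * q + (517620205 / 1073741824) * ν ^ 2 + (-11054017 / 536870912) * (ν * q) := by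
  unfold rows0
  simp only [H0_cons, H0_nil, lsumc, lsumn, v0h, v3, D]
  push_cast
  ring

theorem H1_0 (ν q : ℝ) : H1 D rows0 ν q
    = (95260593 / 67108864) + (-361686511 / 1073741824) * ν + (2156553 / 67108864) * q := by
  unfold rows0
  simp only [H1_cons, H1_nil, List.headD_cons, v1h, v3, D]
  push_cast
  ring

theorem H0_1 (ν q : ℝ) : H0 D rows1 ν q
    = (539701589 / 536870912) + (-169640185 / 536870912) * ν + (12723343 / 536870912) * q + (132677191 / 268435456) * ν ^ 2 + (-22282705 / 1073741824) * (ν * q) := by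
  unfold rows1
  simp only [H0_cons, H0_nil, lsumc, lsumn, v0h, v3, D]
  push_cast
  ring

theorem H1_1 (ν q : ℝ) : H1 D rows1 ν q
    = (1534655135 / 1073741824) + (-180630823 / 536870912) * ν + (35445683 / 1073741824) * q := by
  unfold rows1
  simp only [H1_cons, H1_nil, List.headD_cons, v1h, v3, D]
  push_cast
  ring

/-- **The numeric law** for `61 / 2500 ≤ ν ≤ 3 / 100`. -/
theorem num {θ Θ ν q : ℝ} (hθ0 : 0 ≤ θ) (hθ1 : θ ≤ 1)
    (hΘ : Θ ≤ 1767767 / 1250000 + θ * (3649223 / 10000000 / 37)) (hν0 : 61 / 2500 ≤ ν) (hν1 : ν ≤ 3 / 100)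
    (hq0 : ν ^ 2 ≤ q) (hq1 : q ≤ 1) :
    Θ * ((1 - θ) * H0 D rows0 ν q + θ * H0 D rows1 ν q)
      < (1 - θ) * H1 D rows0 ν q + θ * H1 D rows1 ν q := by
  refine num_pair (a := 61 / 2500) (b := 3 / 100) (C0 := 1767767 / 1250000)
    (C1 := 105381651 / 74000000) (by norm_num) ?_ ?_ ?_ ?_ ?_ hθ0 hθ1 ?_ hν0 hν1 hq0 hq1
    (H0_0 ν q) (H0_1 ν q) (H1_0 ν q) (H1_1 ν q)
  · refine ⟨⟨?_, ?_, ?_, ?_⟩, ?_, ?_, ?_, ?_⟩ <;> norm_num
  · refine ⟨⟨?_, ?_, ?_, ?_⟩, ?_, ?_, ?_, ?_⟩ <;> norm_num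
  · refine ⟨⟨?_, ?_, ?_, ?_⟩, ?_, ?_, ?_, ?_⟩ <;> norm_num
  · refine ⟨⟨?_, ?_, ?_, ?_⟩, ?_, ?_, ?_, ?_⟩ <;> norm_num
  · refine ⟨⟨?_, ?_, ?_, ?_⟩, ?_, ?_, ?_, ?_⟩ <;> norm_num
  · refine hΘ.trans (le_of_eq ?_)
    norm_num

end

end Vale.Agent.P224.R2.H162.P1b
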